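import Mathlib
import Vale.Agent.Lib.P141.Defs
import Vale.Agent.Lib.P141.Weighted

namespace Vale.Agent.Results.P141.A_WeightedCriterion

open Vale.Agent.Lib.P141
open scoped ENNReal

/-- A weighted combinatorial criterion for unboundedness of the trilinear Hilbert transform.
`P` is a finite set of pairs `(e, τ)` of integers, read as 4-term progressions
`(e, e - τ, e - 2 τ, e - 3 τ)`, whose first terms are pairwise incongruent modulo `q`;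
`w1, w2, w3` are positive weights on the sets of second, third and fourth terms, each of total
mass at most `1`. -/
theorem result (q : ℕ) (hq : 2 ≤ q) (P : Finset (ℤ × ℤ))
    (hP : ∀ u ∈ P, ∀ v ∈ P, u.1 % (q : ℤ) = v.1 % (q : ℤ) → u = v)
    (w1 w2 w3 : ℤ → ℝ)
    (hw1 : ∀ u ∈ P, 0 < w1 (u.1 - u.2)) (hw2 : ∀ u ∈ P, 0 < w2 (u.1 - 2 * u.2))
    (hw3 : ∀ u ∈ P, 0 < w3 (u.1 - 3 * u.2))
    (hs1 : ∑ d ∈ P.image (fun u : ℤ × ℤ => u.1 - u.2), w1 d ≤ 1)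
    (hs2 : ∑ d ∈ P.image (fun u : ℤ × ℤ => u.1 - 2 * u.2), w2 d ≤ 1)
    (hs3 : ∑ d ∈ P.image (fun u : ℤ × ℤ => u.1 - 3 * u.2), w3 d ≤ 1)
    (p1 p2 p3 r : ℝ≥0∞) (hr0 : 0 < r) (hrtop : r < ∞)
    (hgap : (q : ℝ) ^ r.toReal <
      ∑ u ∈ P, (w1 (u.1 - u.2) ^ (1 / p1.toReal) * w2 (u.1 - 2 * u.2) ^ (1 / p2.toReal) *
          w3 (u.1 - 3 * u.2) ^ (1 / p3.toReal)) ^ r.toReal) :
    ¬ BoundedAt p1 p2 p3 r :=
  unbounded_of_weights q hq P hP w1 w2 w3 hw1 hw2 hw3 hs1 hs2 hs3 p1 p2 p3 r hr0.ne' hrtop.ne hgap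

end Vale.Agent.Results.P141.A_WeightedCriterion
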