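import Mathlib
import Vale.Agent.Lib.P141.Defs
import Vale.Agent.Lib.P141.Explicit2

namespace Vale.Agent.Results.P141.B_ExplicitRange

open Vale.Agent.Lib.P141
open scoped ENNReal

/-- The trilinear Hilbert transform (slopes 1, 2, 3) is unbounded at every Holder tuple with
`r < 9/20`, and more generally on the half-space `68/p1 + 68/p2 + 61/p3 > 144` and on three
further half-spaces reaching `r = 1/2` near the tuples where two of the `p_i` are close to `1`.
Here `1 / p.toReal` is `1/p`, read as `0` when `p = ∞`. -/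
theorem result (p1 p2 p3 r : ℝ≥0∞) (hH : IsHolderTuple p1 p2 p3 r)
    (h : r < 9 / 20 ∨
      (144 : ℝ) < 68 * (1 / p1.toReal) + 68 * (1 / p2.toReal) + 61 * (1 / p3.toReal) ∨
      (6 : ℝ) < 3 * (1 / p1.toReal) + 3 * (1 / p2.toReal) + 2 * (1 / p3.toReal) ∨
      (6 : ℝ) < 2 * (1 / p1.toReal) + 3 * (1 / p2.toReal) + 3 * (1 / p3.toReal) ∨
      (10 : ℝ) < 5 * (1 / p1.toReal) + 3 * (1 / p2.toReal) + 5 * (1 / p3.toReal)) :
    ¬ BoundedAt p1 p2 p3 r := by
  rcases h with h | h | h | h | h
  · exact unbounded_nine_twentieths hH h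
  · exact unbounded_E hH h
  · exact unbounded_B2 hH h
  · exact unbounded_D2 hH h
  · exact unbounded_F hH h

end Vale.Agent.Results.P141.B_ExplicitRange
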