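import Mathlib
import Vale.Agent.Lib.P141.Defs
import Vale.Agent.Lib.P141.BelowHalf

namespace Vale.Agent.Results.P141.UnboundedBelowHalf

open Vale.Agent.Lib.P141
open scoped ENNReal

/-- For every target exponent `r` with `1/3 < r < 1/2` there is a Holder tuple with that `r` at
which the trilinear Hilbert transform (slopes 1, 2, 3) is not bounded. -/
theorem result (r : ℝ) (h1 : 1 / 3 < r) (h2 : r < 1 / 2) :
    ∃ p1 p2 p3 : ℝ≥0∞, IsHolderTuple p1 p2 p3 (ENNReal.ofReal r) ∧
      ¬ BoundedAt p1 p2 p3 (ENNReal.ofReal r) :=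
  exists_unbounded_tuple r h1 h2

end Vale.Agent.Results.P141.UnboundedBelowHalf
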