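import Mathlib
import Vale.Agent.Lib.P141.Defs
import Vale.Agent.Lib.P141.Explicit

namespace Vale.Agent.Results.P141.UnboundedRange

open Vale.Agent.Lib.P141
open scoped ENNReal

/-- The trilinear Hilbert transform (slopes 1, 2, 3) is unbounded at every Holder tuple in an
explicit region: all tuples with `(17/5)^(1/r) > 17` (that is `r < 0.4319...`), and three further
half-spaces reaching `r = 1/2` near the tuples where two of the `p_i` are close to `1`. -/
theorem result (p1 p2 p3 r : ℝ≥0∞) (hH : IsHolderTuple p1 p2 p3 r)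
    (h : (17 : ℝ) < (17 / 5) ^ (1 / r.toReal) ∨
      (16 : ℝ) < 4 ^ (1 / p1.toReal) * 4 ^ (1 / p2.toReal) * (16 / 7) ^ (1 / p3.toReal) ∨
      (12 : ℝ) < 3 ^ (1 / p1.toReal) * 2 ^ (1 / p2.toReal) * 4 ^ (1 / p3.toReal) ∨
      (16 : ℝ) < (16 / 7) ^ (1 / p1.toReal) * 4 ^ (1 / p2.toReal) * 4 ^ (1 / p3.toReal)) :
    ¬ BoundedAt p1 p2 p3 r := by
  rcases h with h | h | h | h
  · exact unbounded_A hH h
  · exact unbounded_B hH h
  · exact unbounded_C hH h
  · exact unbounded_D hH h

end Vale.Agent.Results.P141.UnboundedRange
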